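import Mathlib
import Vale.Agent.Lib.P034W.Main
import Vale.Agent.Lib.P034W.Thresholds

namespace Vale.Agent.Results.P034.A0_Talagrand
open Vale.Agent.Lib.P034 Vale.Agent.Lib.P034W

/-- **Talagrand's conjecture on the fractional and the integral expectation threshold.**

For every family `F` of subsets of a finite set (increasing or not): if `F` has a fractional cover
with values in `[0, 1]` of cost at most one half at `p`, then `F` is `p / (2 ^ 60 * 7)`-small: it has
a cover of cost at most one half at this parameter. Consequently `q_f (F) ≤ 2 ^ 60 * 7 * q (F)`, with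
a universal constant. -/
theorem result {X : Type*} [Fintype X] [DecidableEq X] (F : Finset (Finset X)) :
    (∀ p ∈ fracSet F, p / (2 ^ 60 * 7) ∈ intSet F) ∧ qFrac F ≤ 2 ^ 60 * 7 * qInt F := by
  have hsmall : ∀ (g : Finset X → ℝ) (p : ℝ), (∀ S, 0 ≤ g S) → 0 < p → p ≤ 1 →
      ∑ S, g S * p ^ S.card ≤ 1 / 2 → (∀ H ∈ F, ∃ D, D ⊆ H ∧ 1 ≤ ∑ S ∈ D.powerset, g S) →
      IsSmall F (p / (2 ^ 60 * 7)) := by
    intro g p hg hp0 hp1 hcost hcov
    refine universal_small F g p hg hp0 hp1 hcost (fun H hH => ?_)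
    obtain ⟨D, hDH, hD⟩ := hcov H hH
    exact hD.trans (Finset.sum_le_sum_of_subset_of_nonneg (Finset.powerset_mono.mpr hDH)
      (fun S _ _ => hg S))
  refine ⟨fun p hp => ?_, qFrac_le_of_small (by norm_num) F hsmall⟩
  obtain ⟨hp0, hp1, g, hg, hcov, hcost⟩ := hp
  have hK : (0 : ℝ) < 2 ^ 60 * 7 := by norm_num
  rcases hp0.eq_or_lt with h0 | h0
  · -- the parameter zero: `F` itself is a cover of cost zero, as it does not hold the empty set
    subst h0
    refine ⟨by simp, by simp, F, fun H hH => ⟨H, hH, Finset.Subset.refl _⟩, ?_⟩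
    have hne : ∀ S ∈ F, S ≠ ∅ := by
      rintro S hS rfl
      have h1 := hcov ∅ hS
      have h2 := Finset.single_le_sum (f := fun S : Finset X => g S * (0 : ℝ) ^ S.card)
        (fun S _ => mul_nonneg (hg S).1 (pow_nonneg le_rfl _)) (Finset.mem_univ (∅ : Finset X))
      simp only [Finset.card_empty, pow_zero, mul_one] at h2
      simp only [Finset.powerset_empty, Finset.sum_singleton] at h1
      linarith
    have h3 : ∑ S ∈ F, ((0 : ℝ) / (2 ^ 60 * 7)) ^ S.card = 0 := by
      refine Finset.sum_eq_zero (fun S hS => ?_)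
      have hc : S.card ≠ 0 := fun h => hne S hS (Finset.card_eq_zero.mp h)
      simp [hc]
    rw [h3]
    norm_num
  · obtain ⟨G, hG, hGc⟩ := universal_small F g p (fun S => (hg S).1) h0 hp1 hcost hcov
    refine ⟨by positivity, ?_, G, hG, hGc⟩
    rw [div_le_one hK]
    have : (1 : ℝ) ≤ 2 ^ 60 * 7 := by norm_num
    linarith

end Vale.Agent.Results.P034.A0_Talagrand
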