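import Mathlib
import Vale.Agent.Lib.P034.Main

namespace Vale.Agent.Results.P034.A_Rayleigh
open Vale.Agent.Lib.P034

/-- Talagrand's conjecture with the absolute constant `K = 2 ^ 23` for fractional covers whose
level parts are Rayleigh polynomials: if `g` is a nonnegative weight with total weight at least one
on the subsets of every member of `F`, with cost at most one half at `p`, and for each `s` the
polynomial formed by the part of `g` on `s`-sets is Rayleigh, then `F` is `p / 2 ^ 23`-small. -/
theorem result {X : Type*} [Fintype X] [DecidableEq X]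
    (F : Finset (Finset X)) (g : Finset X → ℝ) (hg : ∀ A, 0 ≤ g A)
    (hcov : ∀ H ∈ F, 1 ≤ ∑ S ∈ H.powerset, g S)
    (p : ℝ) (hp : 0 < p) (hp1 : p ≤ 1)
    (hcost : ∑ S, g S * p ^ S.card ≤ 1 / 2)
    (hR : ∀ s : ℕ, IsRayleigh (levelPart g s)) :
    IsSmall F (p / 2 ^ 23) :=
  rayleigh_small F g hg hcov hp hp1 hcost hR

end Vale.Agent.Results.P034.A_Rayleigh
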