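import Mathlib
import Vale.Agent.Lib.P034.Tangent3

namespace Vale.Agent.Results.P034.B_LogTangent
open Vale.Agent.Lib.P034

/-- Talagrand's conjecture with the absolute constant `K = 2 ^ 15` for fractional covers whose level
parts lie below their logarithmic tangents.

Part one: every Rayleigh polynomial with nonnegative coefficients is log tangent.
Part two: every polynomial with nonnegative coefficients that is log concave on the positive orthant
is log tangent.
Part three: let `g i` be finitely many nonnegative weights, with total cost at most one half at `p`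
such that every member of `F` has mass at least one under at least one of the `g i`. If for all `i`
and `s` the part of `g i` on `s`-sets is log tangent, then `F` is `p / 2 ^ 15`-small. -/
theorem result {X : Type*} [Fintype X] [DecidableEq X] :
    (∀ g : Finset X → ℝ, (∀ A, 0 ≤ g A) → IsRayleigh g → IsLogTangent g) ∧
    (∀ g : Finset X → ℝ, (∀ A, 0 ≤ g A) → IsLogConcaveOrthant g → IsLogTangent g) ∧
    (∀ {ι : Type} [Fintype ι] (F : Finset (Finset X)) (g : ι → Finset X → ℝ) (p : ℝ),
      (∀ i A, 0 ≤ g i A) → (∀ H ∈ F, ∃ i, 1 ≤ ∑ S ∈ H.powerset, g i S) →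
      0 < p → p ≤ 1 → ∑ i, ∑ S, g i S * p ^ S.card ≤ 1 / 2 →
      (∀ i s, IsLogTangent (levelPart (g i) s)) →
      IsSmall F (p / 2 ^ 15)) :=
  ⟨fun _ hg hR => rayleigh_logTangent hg hR, fun _ hg hC => logConcave_logTangent hg hC,
    fun F g _ hg hcov hp hp1 hcost hT => tangent_small F g hg hcov hp hp1 hcost hT⟩

end Vale.Agent.Results.P034.B_LogTangent
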