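import Mathlib
import Vale.Agent.Lib.P034.Reg4

namespace Vale.Agent.Results.P034.C_Regular
open Vale.Agent.Lib.P034

/-- Talagrand's conjecture with `K = 32` for fractional covers whose support sets include, inside
every member of the family, a set that is regular for the cover.

Part one: let `g i` be finitely many nonnegative weights on subsets, of total cost at most one half
at `p`. If every member of `F` contains a set `D` of mass at least one under some `g i` that is
regular for this `g i`, then `F` is `p / 32`-small.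

Part two: if `F` is invariant under a group `Γ` of permutations of the ground set and every member
of `F` contains a member of `F` on which its stabilizer in `Γ` acts transitively, then any
fractional cover of cost at most one half at `p` gives that `F` is `p / 32`-small.

Part three: a nonempty family of `n`-sets of mass at least one, all regular with the same density
`a > 0`, has at most `(e / p) ^ n * μ ^ (1 / a)` members, written in logarithmic form, where `μ` is
the cost of `g` at `p`. -/
theorem result {X : Type*} [Fintype X] [DecidableEq X] :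
    (∀ {ι : Type} [Fintype ι] (F : Finset (Finset X)) (g : ι → Finset X → ℝ) (p : ℝ),
      (∀ i S, 0 ≤ g i S) → 0 < p → p ≤ 1 → ∑ i, ∑ S, g i S * p ^ S.card ≤ 1 / 2 →
      (∀ H ∈ F, ∃ i, ∃ D, D ⊆ H ∧ 1 ≤ fMass (g i) D ∧ IsRegular (g i) D) →
      IsSmall F (p / 32)) ∧
    (∀ (Γ : Subgroup (Equiv.Perm X)) (F : Finset (Finset X)) (g : Finset X → ℝ) (p : ℝ),
      (∀ S, 0 ≤ g S) → 0 < p → p ≤ 1 → ∑ S, g S * p ^ S.card ≤ 1 / 2 →
      (∀ H ∈ F, 1 ≤ ∑ S ∈ H.powerset, g S) →
      (∀ σ ∈ Γ, ∀ H ∈ F, H.map σ.toEmbedding ∈ F) →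
      (∀ H ∈ F, ∃ D ∈ F, D ⊆ H ∧ ∀ x ∈ D, ∀ y ∈ D,
        ∃ σ ∈ Γ, D.map σ.toEmbedding = D ∧ σ x = y) →
      IsSmall F (p / 32)) ∧
    (∀ (g : Finset X → ℝ) (p : ℝ) (𝓗 : Finset (Finset X)) (n : ℕ) (a : ℝ),
      (∀ S, 0 ≤ g S) → 0 < p → 𝓗.Nonempty → (∀ H ∈ 𝓗, 1 ≤ fMass g H) →
      (∀ H ∈ 𝓗, H.card = n) → 0 < a →
      (∀ H ∈ 𝓗, ∀ x ∈ H, pMass g H x = a * fMass g H) →
      Real.log (𝓗.card : ℝ) ≤
        (n : ℝ) * (1 - Real.log p) + Real.log (∑ S, g S * p ^ S.card) / a) :=
  ⟨fun F g p hg hp hp1 hcost hcov => regular_small F g p hg hp hp1 hcost hcov,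
    fun Γ F g p hg hp hp1 hcost hfrac hinv htrans =>
      symmetric_small Γ F g p hg hp hp1 hcost hfrac hinv htrans,
    fun _ _ _ _ _ hg hp hne hf hn ha0 ha => regular_card_le hg hp hne hf hn ha0 ha⟩

end Vale.Agent.Results.P034.C_Regular
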