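import Mathlib
import Vale.Agent.Lib.P034.Chain7

namespace Vale.Agent.Results.P034.D_LogStar
open Vale.Agent.Lib.P034

/-- Fractional versus integral expectation thresholds with an iterated logarithm loss.

Let `g` be nonnegative weights on subsets of a finite set, of cost `∑ S, g S * p ^ |S|` at most one
half at `p`, where `0 < p ≤ 1`. Suppose every member `H` of the family `F` contains a set `D` of size
at most `ℓ` with `∑ S ⊆ D, g S ≥ 1`. Then `F` is `p / (2 ^ 60 * (2 * logStar ℓ + 2))`-small: it has a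
cover of cost at most one half at this smaller parameter.

For an increasing family whose minimal members have size at most `ℓ` and a fractional cover `g`, every
`H` contains a minimal member `D` of size at most `ℓ`, so that
`q_f(F) ≤ 2 ^ 60 * (2 * logStar ℓ + 2) * q(F)`. -/
theorem result {X : Type*} [Fintype X] [DecidableEq X]
    (F : Finset (Finset X)) (g : Finset X → ℝ) (p : ℝ) (ℓ : ℕ)
    (hg : ∀ S, 0 ≤ g S) (hp0 : 0 < p) (hp1 : p ≤ 1) (hcost : ∑ S, g S * p ^ S.card ≤ 1 / 2)
    (hcov : ∀ H ∈ F, ∃ D, D ⊆ H ∧ D.card ≤ ℓ ∧ 1 ≤ ∑ S ∈ D.powerset, g S) :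
    IsSmall F (p / (2 ^ 60 * (2 * (logStar ℓ : ℝ) + 2))) :=
  logStar_small F g p ℓ hg hp0 hp1 hcost hcov

end Vale.Agent.Results.P034.D_LogStar
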